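import Crest.Agent.R241.Calc

/-!
# Block S, part 1: the coordinates `(t, y) ∈ ℝ × ℝᵏ` on `ℝᵏ⁺¹`, Fubini, Jacobians of sections.
-/

open MeasureTheory Set Filter Topology
open Crest.GeometryTopology.MetricCurrent
open Crest.GeometryTopology.Submanifold (Euc unitBallVol unitSphereArea)
open scoped ENNReal NNReal InnerProductSpace

noncomputable section

namespace Crest.Agent.R241

universe u

variable {k : ℕ}

/-- the point `(t, y)` -/
def slCns (t : ℝ) (y : Euc k) : Euc (k + 1) := WithLp.toLp 2 (Fin.cons t y.ofLp)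

@[simp] theorem slCns_zero (t : ℝ) (y : Euc k) : slCns t y 0 = t := rfl
@[simp] theorem slCns_succ (t : ℝ) (y : Euc k) (a : Fin k) : slCns t y a.succ = y a := rfl

theorem slCns_sub (t t' : ℝ) (y y' : Euc k) :
    slCns t y - slCns t' y' = slCns (t - t') (y - y') := by
  ext a; refine Fin.cases ?_ (fun a => ?_) a <;> simp

theorem norm_slCns_sq (t : ℝ) (y : Euc k) : ‖slCns t y‖ ^ 2 = t ^ 2 + ‖y‖ ^ 2 := by
  simp [EuclideanSpace.norm_sq_eq, Fin.sum_univ_succ]

theorem abs_le_norm_slCns (t : ℝ) (y : Euc k) : |t| ≤ ‖slCns t y‖ :=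
  abs_le_of_sq_le_sq' (by rw [norm_slCns_sq]; nlinarith [sq_nonneg ‖y‖]) (norm_nonneg _) |> abs_le.2

theorem norm_le_norm_slCns (t : ℝ) (y : Euc k) : ‖y‖ ≤ ‖slCns t y‖ :=
  (abs_le_of_sq_le_sq' (by rw [norm_slCns_sq]; nlinarith [sq_nonneg t]) (norm_nonneg _)).2

theorem norm_slCns_le (t : ℝ) (y : Euc k) : ‖slCns t y‖ ≤ |t| + ‖y‖ :=
  (abs_le_of_sq_le_sq' (by
    rw [norm_slCns_sq, add_sq, sq_abs]; nlinarith [abs_nonneg t, norm_nonneg y])
    (by positivity)).2

theorem dist_slCns (t : ℝ) (y y' : Euc k) : dist (slCns t y) (slCns t y') = dist y y' := by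
  rw [dist_eq_norm, dist_eq_norm, slCns_sub, sub_self]
  exact le_antisymm (by simpa using norm_slCns_le 0 (y - y')) (norm_le_norm_slCns _ _)

theorem lipschitz_slCns (t : ℝ) : LipschitzWith 1 (slCns t : Euc k → Euc (k + 1)) :=
  LipschitzWith.of_dist_le_mul fun y y' => by rw [dist_slCns]; simp

/-- the linear part `y ↦ (0, y)` -/
def slIn (k : ℕ) : Euc k →L[ℝ] Euc (k + 1) :=
  LinearMap.toContinuousLinearMap
    { toFun := slCns 0
      map_add' := fun y y' => by ext a; refine Fin.cases ?_ (fun a => ?_) a <;> simp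
      map_smul' := fun r y => by ext a; refine Fin.cases ?_ (fun a => ?_) a <;> simp }

@[simp] theorem slIn_apply (y : Euc k) : slIn k y = slCns 0 y := rfl

theorem hasFDerivAt_slCns (t : ℝ) (y : Euc k) : HasFDerivAt (slCns t) (slIn k) y := by
  have : (slCns t : Euc k → Euc (k + 1)) = fun y => slIn k y + slCns t 0 := by
    funext y; ext a; refine Fin.cases ?_ (fun a => ?_) a <;> simp
  rw [this]
  exact (slIn k).hasFDerivAt.add_const _

theorem slIn_single (j : Fin k) :
    slIn k (EuclideanSpace.single j 1) = EuclideanSpace.single j.succ 1 := by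
  ext a; refine Fin.cases ?_ (fun a => ?_) a
  · simp [(Fin.succ_ne_zero j).symm]
  · simp [PiLp.single_apply]

/-- `(t, y) ↦ slCns t y` as a measurable equivalence -/
def slEq (k : ℕ) : ℝ × Euc k ≃ᵐ Euc (k + 1) :=
  ((MeasurableEquiv.refl ℝ).prodCongr (MeasurableEquiv.toLp 2 (Fin k → ℝ)).symm).trans
    ((MeasurableEquiv.piFinSuccAbove (fun _ : Fin (k + 1) => ℝ) 0).symm.trans
      (MeasurableEquiv.toLp 2 (Fin (k + 1) → ℝ)))

theorem slEq_apply (p : ℝ × Euc k) : slEq k p = slCns p.1 p.2 := by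
  ext a; refine Fin.cases ?_ (fun a => ?_) a
  · simp [slEq, MeasurableEquiv.piFinSuccAbove_symm_apply, Fin.insertNthEquiv,
      MeasurableEquiv.prodCongr]
  · simp [slEq, MeasurableEquiv.piFinSuccAbove_symm_apply, Fin.insertNthEquiv,
      MeasurableEquiv.prodCongr]

theorem measurePreserving_slEq : MeasurePreserving (slEq k) := by
  have h1 : MeasurePreserving
      ((MeasurableEquiv.refl ℝ).prodCongr (MeasurableEquiv.toLp 2 (Fin k → ℝ)).symm) :=
    (MeasurePreserving.id volume).prod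
      (EuclideanSpace.volume_preserving_symm_measurableEquiv_toLp (Fin k))
  exact h1.trans (((volume_preserving_piFinSuccAbove (fun _ : Fin (k + 1) => ℝ) 0).symm _).trans
    (EuclideanSpace.volume_preserving_symm_measurableEquiv_toLp (Fin (k + 1))).symm)

/-- the section of `Q` at height `t` -/
def slSec (Q : Set (Euc (k + 1))) (t : ℝ) : Set (Euc k) := {y | slCns t y ∈ Q}

theorem measurableSet_slSec {Q : Set (Euc (k + 1))} (hQ : MeasurableSet Q) (t : ℝ) :
    MeasurableSet (slSec Q t) := (lipschitz_slCns t).continuous.measurable hQ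

theorem slSec_eq (Q : Set (Euc (k + 1))) (t : ℝ) : slSec Q t = Prod.mk t ⁻¹' (slEq k ⁻¹' Q) := by
  ext y; simp [slSec, slEq_apply]

theorem measurable_volume_slSec {Q : Set (Euc (k + 1))} (hQ : MeasurableSet Q) :
    Measurable fun t => volume (slSec Q t) := by
  simp only [slSec_eq]
  exact measurable_measure_prodMk_left ((slEq k).measurable hQ)

theorem lintegral_volume_slSec {Q : Set (Euc (k + 1))} (hQ : MeasurableSet Q) {A : Set ℝ}
    (hA : MeasurableSet A) :
    ∫⁻ t in A, volume (slSec Q t) = volume (Q ∩ {w | w 0 ∈ A}) := by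
  have hm : MeasurableSet (Q ∩ {w : Euc (k + 1) | w 0 ∈ A}) :=
    hQ.inter ((by fun_prop : Measurable fun w : Euc (k + 1) => w 0) hA)
  rw [← measurePreserving_slEq.measure_preimage hm.nullMeasurableSet, Measure.volume_eq_prod,
    Measure.prod_apply ((slEq k).measurable hm), ← lintegral_indicator hA]
  refine lintegral_congr fun t => ?_
  rw [← slSec_eq]
  by_cases ht : t ∈ A
  · rw [indicator_of_mem ht]
    congr 1; ext y; simp [slSec, ht]
  · rw [indicator_of_notMem ht]
    have : slSec (Q ∩ {w : Euc (k + 1) | w 0 ∈ A}) t = ∅ := by ext y; simp [slSec, ht]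
    rw [this, measure_empty]

theorem sl_ae_ae {p : Euc (k + 1) → Prop} (h : ∀ᵐ w, p w) : ∀ᵐ t : ℝ, ∀ᵐ y : Euc k, p (slCns t y) := by
  have h1 := measurePreserving_slEq.quasiMeasurePreserving.ae h
  rw [Measure.volume_eq_prod] at h1
  simpa only [slEq_apply] using Measure.ae_ae_of_ae_prod h1

theorem sl_ae_sec {Q : Set (Euc (k + 1))} (hQ : MeasurableSet Q) {p : Euc (k + 1) → Prop}
    (h : ∀ᵐ w ∂volume.restrict Q, p w) :
    ∀ᵐ t : ℝ, ∀ᵐ y ∂volume.restrict (slSec Q t), p (slCns t y) := by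
  rw [ae_restrict_iff' hQ] at h
  filter_upwards [sl_ae_ae h] with t ht
  rw [ae_restrict_iff' (measurableSet_slSec hQ t)]
  exact ht

theorem sl_fubini {Q : Set (Euc (k + 1))} (hQ : MeasurableSet Q) {H : Euc (k + 1) → ℝ}
    (hH : IntegrableOn H Q) :
    Integrable (fun t => ∫ y in slSec Q t, H (slCns t y)) ∧
      ∫ w in Q, H w = ∫ t, ∫ y in slSec Q t, H (slCns t y) := by
  have h1 : Integrable (Q.indicator H) := (integrable_indicator_iff hQ).2 hH
  have h2 : Integrable (fun p : ℝ × Euc k => Q.indicator H (slEq k p)) (volume.prod volume) := by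
    rw [← Measure.volume_eq_prod]
    exact (measurePreserving_slEq.integrable_comp_emb (slEq k).measurableEmbedding).2 h1
  have h3 : ∀ t, ∫ y in slSec Q t, H (slCns t y) = ∫ y, Q.indicator H (slEq k (t, y)) := by
    intro t
    rw [← integral_indicator (measurableSet_slSec hQ t)]
    refine integral_congr_ae (Eventually.of_forall fun y => ?_)
    simp only [slEq_apply]
    rfl
  simp only [h3]
  refine ⟨h2.integral_prod_left, ?_⟩
  rw [← integral_indicator hQ, ← measurePreserving_slEq.integral_comp', Measure.volume_eq_prod,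
    integral_prod _ h2]

/-- the Jacobian of `(w 0, g₁, …)` is the Jacobian of the sections -/
theorem sl_section {Q : Set (Euc (k + 1))} (hQ : MeasurableSet Q)
    {g : Fin (k + 1) → Euc (k + 1) → ℝ} {L : Fin (k + 1) → ℝ≥0}
    (hg : ∀ a, LipschitzOnWith (L a) (g a) Q) (h0 : ∀ w ∈ Q, g 0 w = w 0) :
    ∀ᵐ t : ℝ, ∀ᵐ y ∂volume.restrict (slSec Q t),
      jacE Q g (slCns t y) = jacE (slSec Q t) (fun a y => g a.succ (slCns t y)) y := by
  choose G hG hgG using fun a => (hg a).extend_real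
  have hp : LipschitzWith 1 fun w : Euc (k + 1) => w 0 :=
    LipschitzWith.of_dist_le_mul fun x y => by simpa using PiLp.dist_apply_le x y 0
  have h1 : ∀ᵐ w ∂volume.restrict Q, ∀ a, DifferentiableAt ℝ (G a) w ∧
      fderivWithin ℝ (g a) Q w = fderiv ℝ (G a) w :=
    ae_all_iff.2 fun a => (ae_fderivWithin_eq_fderiv hQ (hG a) (hgG a)).mono
      fun w hw => ⟨hw.1, hw.2.2⟩
  have h2 : ∀ᵐ w ∂volume.restrict Q,
      fderivWithin ℝ (g 0) Q w = fderiv ℝ (fun w : Euc (k + 1) => w 0) w :=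
    (ae_fderivWithin_eq_fderiv hQ hp h0).mono fun w hw => hw.2.2
  filter_upwards [sl_ae_sec hQ (h1.and h2)] with t ht
  have h3 : ∀ᵐ y ∂volume.restrict (slSec Q t), ∀ a : Fin k,
      fderivWithin ℝ (fun y => g a.succ (slCns t y)) (slSec Q t) y
        = fderiv ℝ (fun y => G a.succ (slCns t y)) y :=
    ae_all_iff.2 fun a => (ae_fderivWithin_eq_fderiv (measurableSet_slSec hQ t)
      ((hG a.succ).comp (lipschitz_slCns t)) fun y hy => hgG a.succ hy).mono fun y hy => hy.2.2
  filter_upwards [ht, h3] with y hy h3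
  obtain ⟨h1, h2⟩ := hy
  have h4 : fderiv ℝ (fun w : Euc (k + 1) => w 0) (slCns t y) = EuclideanSpace.proj 0 :=
    (EuclideanSpace.proj (𝕜 := ℝ) (0 : Fin (k + 1))).hasFDerivAt.fderiv
  unfold jacE
  rw [Matrix.det_succ_row_zero, Fin.sum_univ_succ, Finset.sum_eq_zero, add_zero]
  · simp only [Matrix.of_apply, h2, h4]
    simp only [Fin.val_zero, pow_zero, one_mul, Fin.succAbove_zero]
    rw [show (EuclideanSpace.proj (𝕜 := ℝ) (0 : Fin (k + 1))) (EuclideanSpace.single 0 1) = 1 by
      simp, one_mul]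
    congr 1
    ext a j
    simp only [Matrix.submatrix_apply, Matrix.of_apply]
    have h5 : HasFDerivAt (fun y => G a.succ (slCns t y)) _ y :=
      (h1 a.succ).1.hasFDerivAt.comp y (hasFDerivAt_slCns t y)
    rw [h3 a, (h1 a.succ).2, h5.fderiv, ContinuousLinearMap.comp_apply, slIn_single]
  · intro j _
    simp only [Matrix.of_apply, h2, h4]
    simp [(Fin.succ_ne_zero j).symm]

end Crest.Agent.R241
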