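import Crest.Agent.R241.Slice.Cns

/-!
# Block S, part 2: the linear maps `h ↦ (ℓ h, T h)`.
-/

open MeasureTheory Set Filter Topology
open Crest.GeometryTopology.MetricCurrent
open Crest.GeometryTopology.Submanifold (Euc unitBallVol unitSphereArea)
open scoped ENNReal NNReal InnerProductSpace

noncomputable section

namespace Crest.Agent.R241

universe u

variable {k : ℕ}

/-- `h ↦ (ℓ h, T h)` -/
def slD (ℓ : Euc (k + 1) →L[ℝ] ℝ) (T : Euc (k + 1) →L[ℝ] Euc k) : Euc (k + 1) →L[ℝ] Euc (k + 1) :=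
  ℓ.smulRight (slCns 1 0) + (slIn k).comp T

theorem slD_apply (ℓ : Euc (k + 1) →L[ℝ] ℝ) (T : Euc (k + 1) →L[ℝ] Euc k) (h : Euc (k + 1)) :
    slD ℓ T h = slCns (ℓ h) (T h) := by
  ext a; refine Fin.cases ?_ (fun a => ?_) a <;> simp [slD]

theorem continuous_slD_det (T : Euc (k + 1) →L[ℝ] Euc k) :
    Continuous fun ℓ : Euc (k + 1) →L[ℝ] ℝ => (slD ℓ T).det := by
  refine ContinuousLinearMap.continuous_det.comp (Continuous.add ?_ continuous_const)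
  exact ((ContinuousLinearMap.smulRightL ℝ (Euc (k + 1)) (Euc (k + 1))).flip
    (slCns 1 0)).continuous

theorem sl_det_eq {n : ℕ} (A : Euc n →L[ℝ] Euc n) :
    A.det = (Matrix.of fun a j => A (EuclideanSpace.single j 1) a).det := by
  rw [ContinuousLinearMap.det, ← LinearMap.det_toMatrix (EuclideanSpace.basisFun (Fin n) ℝ).toBasis]
  congr 1

theorem sl_norm_row_le {n : ℕ} (ℓ : Euc n →L[ℝ] ℝ) :
    ‖(WithLp.toLp 2 fun j => ℓ (EuclideanSpace.single j 1) : Euc n)‖ ≤ ‖ℓ‖ := by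
  set x : Euc n := WithLp.toLp 2 fun j => ℓ (EuclideanSpace.single j 1) with hx
  have h1 : x = ∑ j, x j • EuclideanSpace.single j (1 : ℝ) := by
    conv_lhs => rw [← (EuclideanSpace.basisFun (Fin n) ℝ).sum_repr x]
    simp
  have h2 : ℓ x = ‖x‖ ^ 2 := by
    rw [EuclideanSpace.norm_sq_eq]
    conv_lhs => rw [h1]
    simp [hx, sq]
  have h3 : ‖x‖ ^ 2 ≤ ‖ℓ‖ * ‖x‖ := h2 ▸ (le_abs_self _).trans (ℓ.le_opNorm x)
  rcases (norm_nonneg x).eq_or_lt with h | h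
  · rw [← h]; exact norm_nonneg _
  · rw [sq] at h3
    exact le_of_mul_le_mul_right h3 h

theorem abs_det_slD_le (ℓ : Euc (k + 1) →L[ℝ] ℝ) (T : Euc (k + 1) →L[ℝ] Euc k) :
    |(slD ℓ T).det| ≤ ‖ℓ‖ * ‖T‖ ^ k := by
  rw [sl_det_eq]
  let v : Fin (k + 1) → Euc (k + 1) := fun a =>
    WithLp.toLp 2 fun j => slD ℓ T (EuclideanSpace.single j 1) a
  refine (abs_det_le_prod v).trans ?_
  rw [Fin.prod_univ_succ]
  refine mul_le_mul ?_ ?_ (Finset.prod_nonneg fun _ _ => norm_nonneg _) (norm_nonneg _)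
  · simpa [v, slD_apply] using sl_norm_row_le ℓ
  · calc ∏ a : Fin k, ‖v a.succ‖ ≤ ∏ _a : Fin k, ‖T‖ := by
          refine Finset.prod_le_prod (fun _ _ => norm_nonneg _) fun a _ => ?_
          have h1 := sl_norm_row_le ((EuclideanSpace.proj a).comp T)
          have h2 : ‖(EuclideanSpace.proj (𝕜 := ℝ) a).comp T‖ ≤ ‖T‖ :=
            ContinuousLinearMap.opNorm_le_bound _ (norm_nonneg _) fun x =>
              (PiLp.norm_apply_le (T x) a).trans (T.le_opNorm x)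
          refine le_trans ?_ (h1.trans h2)
          simp [v, slD_apply]
      _ = ‖T‖ ^ k := by simp

theorem det_slD_ne_zero {ℓ : Euc (k + 1) →L[ℝ] ℝ} {T : Euc (k + 1) →L[ℝ] Euc k} {K : ℝ}
    (h : ∀ x, ‖x‖ ≤ ‖T x‖ + K * |ℓ x|) : (slD ℓ T).det ≠ 0 := by
  intro h0
  obtain ⟨x, hx, hx0⟩ := (Submodule.ne_bot_iff _).1 (LinearMap.bot_lt_ker_of_det_eq_zero h0).ne'
  have h1 : slCns (ℓ x) (T x) = 0 := by rw [← slD_apply]; exact hx
  have h2 := abs_le_norm_slCns (ℓ x) (T x)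
  have h3 := norm_le_norm_slCns (ℓ x) (T x)
  rw [h1, norm_zero] at h2 h3
  have h4 := h x
  rw [le_antisymm h2 (abs_nonneg _), le_antisymm h3 (norm_nonneg _)] at h4
  exact hx0 (norm_le_zero_iff.1 (by simpa using h4))

theorem hasFDerivWithinAt_slCns {v : Euc (k + 1) → ℝ} {ℓ : Euc (k + 1) →L[ℝ] ℝ}
    {P : Set (Euc (k + 1))} {z : Euc (k + 1)} (hv : HasFDerivWithinAt v ℓ P z)
    (T : Euc (k + 1) →L[ℝ] Euc k) :
    HasFDerivWithinAt (fun z => slCns (v z) (T z)) (slD ℓ T) P z := by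
  have : (fun z => slCns (v z) (T z)) = fun z => v z • slCns 1 0 + slIn k (T z) := by
    funext z; ext a; refine Fin.cases ?_ (fun a => ?_) a <;> simp
  rw [this]
  exact (hv.smul_const _).add ((slIn k).comp T).hasFDerivWithinAt

/-- orthogonal projection onto the kernel of `ℓ` -/
theorem sl_lin₀ {ℓ : Euc (k + 1) →L[ℝ] ℝ} (hℓ : ℓ ≠ 0) :
    ∃ T : Euc (k + 1) →L[ℝ] Euc k, ‖T‖ ≤ 1 ∧ ∀ x, ‖x‖ ≤ ‖T x‖ + ‖ℓ‖⁻¹ * |ℓ x| := by
  set n := (InnerProductSpace.toDual ℝ (Euc (k + 1))).symm ℓ with hn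
  have hnℓ : ∀ x, ⟪n, x⟫_ℝ = ℓ x := fun x => InnerProductSpace.toDual_symm_apply
  have hnn : ‖n‖ = ‖ℓ‖ := LinearIsometryEquiv.norm_map _ _
  have hpos : 0 < ‖ℓ‖ := norm_pos_iff.2 hℓ
  have hn0 : n ≠ 0 := norm_pos_iff.1 (hnn ▸ hpos)
  have : Fact (Module.finrank ℝ (Euc (k + 1)) = k + 1) := ⟨by simp⟩
  let U := (OrthonormalBasis.fromOrthogonalSpanSingleton (𝕜 := ℝ) k hn0).repr
  refine ⟨U.toContinuousLinearEquiv.toContinuousLinearMap.comp
    (Submodule.orthogonalProjectionOnto (ℝ ∙ n)ᗮ), ?_, fun x => ?_⟩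
  · refine ContinuousLinearMap.opNorm_le_bound _ zero_le_one fun x => ?_
    simpa using Submodule.norm_orthogonalProjectionOnto_apply_le (ℝ ∙ n)ᗮ x
  · have h1 := Submodule.starProjection_add_starProjection_orthogonal (K := ℝ ∙ n) x
    have h2 : ‖(ℝ ∙ n).starProjection x‖ = ‖ℓ‖⁻¹ * |ℓ x| := by
      rw [Submodule.starProjection_singleton, norm_smul, hnℓ, hnn]
      simp only [RCLike.ofReal_real_eq_id, id_eq, norm_div, Real.norm_eq_abs, abs_pow, abs_norm]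
      field_simp
    have h3 := norm_add_le ((ℝ ∙ n).starProjection x) ((ℝ ∙ n)ᗮ.starProjection x)
    rw [h1, h2] at h3
    simpa [add_comm] using h3

/-- a countable family of maps `T` suffices -/
theorem sl_lin {ε : ℝ} (hε : 0 < ε) : ∃ D : Set (Euc (k + 1) →L[ℝ] Euc k), D.Countable ∧
    (∀ T ∈ D, ‖T‖ ≤ 1 + ε) ∧ ∀ ℓ : Euc (k + 1) →L[ℝ] ℝ, ℓ ≠ 0 → ∃ T ∈ D, ∃ K : ℕ, ∃ δ > (0 : ℝ),
      ∀ x, (1 + δ) * ‖x‖ ≤ ‖T x‖ + K * |ℓ x| := by
  obtain ⟨D, hDc, hD⟩ := TopologicalSpace.exists_countable_dense (Euc (k + 1) →L[ℝ] Euc k)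
  refine ⟨D ∩ {T | ‖T‖ ≤ 1 + ε}, hDc.mono inter_subset_left, fun T hT => hT.2, fun ℓ hℓ => ?_⟩
  obtain ⟨T₀, h1, h2⟩ := sl_lin₀ hℓ
  obtain ⟨T, hT, hTD⟩ := hD.exists_dist_lt ((1 + ε / 2) • T₀) (by positivity : 0 < ε / 4)
  rw [dist_eq_norm] at hTD
  have h3 : ‖(1 + ε / 2) • T₀‖ ≤ 1 + ε / 2 := by
    rw [norm_smul, Real.norm_of_nonneg (by positivity)]
    exact mul_le_of_le_one_right (by positivity) h1
  obtain ⟨K, hK⟩ := exists_nat_ge ((1 + ε / 2) * ‖ℓ‖⁻¹)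
  refine ⟨T, ⟨hT, ?_⟩, K, ε / 4, by positivity, fun x => ?_⟩
  · have := norm_sub_norm_le T ((1 + ε / 2) • T₀)
    rw [norm_sub_rev] at this
    show ‖T‖ ≤ 1 + ε
    linarith
  · have h4 : ‖((1 + ε / 2) • T₀ - T) x‖ ≤ ε / 4 * ‖x‖ :=
      (ContinuousLinearMap.le_opNorm _ x).trans (mul_le_mul_of_nonneg_right hTD.le (norm_nonneg _))
    have h5 : (1 + ε / 2) * ‖T₀ x‖ ≤ ‖T x‖ + ε / 4 * ‖x‖ := by
      have := norm_sub_norm_le ((1 + ε / 2) • T₀ x) (T x)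
      rw [norm_smul, Real.norm_of_nonneg (by positivity)] at this
      simp only [sub_apply, smul_apply] at h4
      linarith
    have h6 := mul_le_mul_of_nonneg_left (h2 x) (by positivity : 0 ≤ 1 + ε / 2)
    have h7 := mul_le_mul_of_nonneg_right hK (abs_nonneg (ℓ x))
    nlinarith

end Crest.Agent.R241
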