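import Crest.Agent.R241.Slice.Lin

/-!
# Block S, part 3: cutting a chart domain into pieces on which `(v, T)` is a bi-Lipschitz chart.
-/

open MeasureTheory Set Filter Topology
open Crest.GeometryTopology.MetricCurrent
open Crest.GeometryTopology.Submanifold (Euc unitBallVol unitSphereArea)
open scoped ENNReal NNReal InnerProductSpace

noncomputable section

namespace Crest.Agent.R241

universe u

variable {k : ℕ}

theorem sl_isClosed (E : Set (Euc (k + 1))) {V : Euc (k + 1) → ℝ} (hV : Continuous V)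
    (T : Euc (k + 1) →L[ℝ] Euc k) (K r : ℝ) : IsClosed {z | ∀ z' ∈ E, dist z' z < r →
      ‖z - z'‖ ≤ ‖T (z - z')‖ + K * |V z - V z'|} := by
  have : {z | ∀ z' ∈ E, dist z' z < r → ‖z - z'‖ ≤ ‖T (z - z')‖ + K * |V z - V z'|}
      = ⋂ z' ∈ E, ({z | r ≤ dist z' z} ∪ {z | ‖z - z'‖ ≤ ‖T (z - z')‖ + K * |V z - V z'|}) := by
    ext z
    simp only [mem_iInter, mem_ofPred_eq, mem_union, imp_iff_not_or (a := dist _ z < r), not_lt]
  rw [this]
  exact isClosed_biInter fun z' _ => (isClosed_le continuous_const (by fun_prop)).union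
    (isClosed_le (by fun_prop) (by fun_prop))

theorem sl_local {V : Euc (k + 1) → ℝ} {ℓ : Euc (k + 1) →L[ℝ] ℝ} {z : Euc (k + 1)}
    (hV : HasFDerivAt V ℓ z) {T : Euc (k + 1) →L[ℝ] Euc k} {K : ℕ} {δ : ℝ} (hδ : 0 < δ)
    (h : ∀ x, (1 + δ) * ‖x‖ ≤ ‖T x‖ + K * |ℓ x|) : ∃ m : ℕ, ∀ z', dist z' z < 1 / ((m : ℝ) + 1) →
      ‖z - z'‖ ≤ ‖T (z - z')‖ + K * |V z - V z'| := by
  have h1 := hV.isLittleO.def (by positivity : 0 < δ / ((K : ℝ) + 1))
  obtain ⟨r, hr, h1⟩ := Metric.eventually_nhds_iff.1 h1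
  obtain ⟨m, hm⟩ := exists_nat_one_div_lt hr
  refine ⟨m, fun z' hz' => ?_⟩
  have h2 := h1 (hz'.trans hm)
  have h3 : |ℓ (z - z')| ≤ |V z - V z'| + δ / ((K : ℝ) + 1) * ‖z - z'‖ := by
    have h4 : ℓ (z - z') = (V z - V z') + (V z' - V z - ℓ (z' - z)) := by
      rw [map_sub, map_sub]; ring
    rw [h4, norm_sub_rev z z']
    exact (abs_add_le _ _).trans (add_le_add le_rfl h2)
  have h5 : (K : ℝ) * (δ / ((K : ℝ) + 1)) ≤ δ := by
    rw [mul_div_assoc', div_le_iff₀ (by positivity)]; nlinarith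
  have h6 := mul_le_mul_of_nonneg_left h3 (Nat.cast_nonneg (α := ℝ) K)
  have h7 := mul_le_mul_of_nonneg_right h5 (norm_nonneg (z - z'))
  have h8 := h (z - z')
  nlinarith

theorem sl_pieces {E : Set (Euc (k + 1))} (hE : MeasurableSet E) {v : Euc (k + 1) → ℝ} {L : ℝ≥0}
    (hv : LipschitzOnWith L v E) {ε : ℝ} (hε : 0 < ε) :
    ∃ (P : ℕ → Set (Euc (k + 1))) (T : ℕ → Euc (k + 1) →L[ℝ] Euc k) (K : ℕ → ℕ) (s : ℕ → ℝ),
      (∀ l, MeasurableSet (P l)) ∧ (∀ l, P l ⊆ E) ∧ Pairwise (Function.onFun Disjoint P) ∧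
      (∀ l, ‖T l‖ ≤ 1 + ε) ∧ (∀ l, s l = 1 ∨ s l = -1) ∧
      (∀ l, ∀ z ∈ P l, ∀ z' ∈ P l, ‖z - z'‖ ≤ ‖T l (z - z')‖ + K l * |v z - v z'|) ∧
      (∀ l, ∀ᵐ z ∂volume.restrict (P l), 0 < s l * (slD (fderivWithin ℝ v (P l) z) (T l)).det) ∧
      ∀ᵐ z ∂volume.restrict E, fderivWithin ℝ v E z ≠ 0 → z ∈ ⋃ l, P l := by
  obtain ⟨V, hV, hvV⟩ := hv.extend_real
  obtain ⟨D, hDc, hD1, hD⟩ := sl_lin (k := k) hε
  obtain ⟨T, hT⟩ := (hDc.insert 0).exists_eq_range (insert_nonempty _ _)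
  have hT1 : ∀ a, ‖T a‖ ≤ 1 + ε := fun a => by
    rcases (hT ▸ mem_range_self a : T a ∈ insert 0 D) with h | h
    · rw [h, norm_zero]; positivity
    · exact hD1 _ h
  let x := TopologicalSpace.denseSeq (Euc (k + 1))
  let sg : Bool → ℝ := fun b => if b then 1 else -1
  let S : ℕ × ℕ × ℕ × ℕ × Bool → Set (Euc (k + 1)) := fun i =>
    (E ∩ Metric.ball (x i.2.2.2.1) (1 / ((i.2.2.1 : ℝ) + 1) / 2)) ∩
    ({z | ∀ z' ∈ E, dist z' z < 1 / ((i.2.2.1 : ℝ) + 1) →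
      ‖z - z'‖ ≤ ‖T i.1 (z - z')‖ + i.2.1 * |V z - V z'|} ∩
    {z | 0 < sg i.2.2.2.2 * (slD (fderiv ℝ V z) (T i.1)).det})
  have hS : ∀ i, MeasurableSet (S i) := fun i =>
    (hE.inter measurableSet_ball).inter ((sl_isClosed E hV.continuous _ _ _).measurableSet.inter
      (measurableSet_lt measurable_const (measurable_const.mul
        ((continuous_slD_det _).measurable.comp (measurable_fderiv ℝ V)))))
  obtain ⟨e, he⟩ := exists_surjective_nat (ℕ × ℕ × ℕ × ℕ × Bool)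
  have hP : ∀ l, MeasurableSet (disjointed (fun l => S (e l)) l) :=
    MeasurableSet.disjointed fun l => hS (e l)
  have hPS : ∀ l, disjointed (fun l => S (e l)) l ⊆ S (e l) := disjointed_subset _
  have hPE : ∀ l, disjointed (fun l => S (e l)) l ⊆ E := fun l z hz => (hPS l hz).1.1
  refine ⟨disjointed fun l => S (e l), fun l => T (e l).1, fun l => (e l).2.1,
    fun l => sg (e l).2.2.2.2, hP, hPE, disjoint_disjointed _, fun l => hT1 _, fun l => ?_,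
    fun l z hz z' hz' => ?_, fun l => ?_, ?_⟩
  · show sg _ = 1 ∨ sg _ = -1
    cases (e l).2.2.2.2 <;> simp [sg]
  · obtain ⟨⟨h1, h2⟩, h3, -⟩ := hPS l hz
    obtain ⟨⟨h1', h2'⟩, -⟩ := hPS l hz'
    rw [hvV h1, hvV h1']
    refine h3 z' h1' ?_
    rw [Metric.mem_ball] at h2 h2'
    linarith [dist_triangle_right z' z (x (e l).2.2.2.1)]
  · filter_upwards [ae_fderivWithin_eq_fderiv (hP l) hV (hvV.mono (hPE l)),
      ae_restrict_mem (hP l)] with z hz hz'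
    rw [hz.2.2]
    exact (hPS l hz').2.2
  · filter_upwards [ae_fderivWithin_eq_fderiv hE hV hvV, ae_restrict_mem hE] with z hz hzE hne
    rw [hz.2.2] at hne
    obtain ⟨T', hT', K, δ, hδ, h1⟩ := hD _ hne
    obtain ⟨a, rfl⟩ : T' ∈ range T := hT ▸ mem_insert_of_mem _ hT'
    obtain ⟨m, hm⟩ := sl_local hz.1.hasFDerivAt hδ h1
    obtain ⟨n, hn⟩ := (TopologicalSpace.denseRange_denseSeq (Euc (k + 1))).exists_dist_lt z
      (by positivity : 0 < 1 / ((m : ℝ) + 1) / 2)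
    have h2 : (slD (fderiv ℝ V z) (T a)).det ≠ 0 := det_slD_ne_zero (K := K) fun y =>
      le_trans (by nlinarith [norm_nonneg y]) (h1 y)
    obtain ⟨b, hb⟩ : ∃ b, 0 < sg b * (slD (fderiv ℝ V z) (T a)).det := by
      rcases h2.lt_or_gt with h | h
      · exact ⟨false, by simpa [sg] using h⟩
      · exact ⟨true, by simpa [sg] using h⟩
    rw [iUnion_disjointed]
    obtain ⟨l, hl⟩ := he (a, K, m, n, b)
    refine mem_iUnion.2 ⟨l, ?_⟩
    rw [hl]
    exact ⟨⟨hzE, hn⟩, fun z' _ => hm z', hb⟩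

/-- `Ψ : Q → P` is a parametrisation of the piece `P` adapted to the levels of `v` -/
structure SlPc (v : Euc (k + 1) → ℝ) (κ : ℝ≥0∞) (P Q : Set (Euc (k + 1)))
    (Ψ : Euc (k + 1) → Euc (k + 1)) (s : ℝ) : Prop where
  meas : MeasurableSet Q
  maps : MapsTo Ψ Q P
  lip : ∃ K, LipschitzOnWith K Ψ Q
  lev : ∀ w ∈ Q, v (Ψ w) = w 0
  lip1 : ∀ w ∈ Q, ∀ w' ∈ Q, w 0 = w' 0 → dist (Ψ w) (Ψ w') ≤ dist w w'
  vol : ∀ A, MeasurableSet A →
    volume (Q ∩ {w | w 0 ∈ A}) ≤ κ * ∫⁻ z in P ∩ v ⁻¹' A, ‖fderivWithin ℝ v P z‖ₑ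
  act : ∀ (ρ : Euc (k + 1) → ℝ) (g : Fin (k + 1) → Euc (k + 1) → ℝ) (L : Fin (k + 1) → ℝ≥0),
    (∀ a, LipschitzOnWith (L a) (g a) P) →
    ∫ z in P, ρ z * jacE P g z = s * ∫ w in Q, ρ (Ψ w) * jacE Q (fun a w => g a (Ψ w)) w

theorem sl_chart {P : Set (Euc (k + 1))} (hP : MeasurableSet P) {v : Euc (k + 1) → ℝ} {L : ℝ≥0}
    (hv : LipschitzOnWith L v P) {T : Euc (k + 1) →L[ℝ] Euc k} {K : ℕ} {s : ℝ}
    (hs : s = 1 ∨ s = -1) (h : ∀ z ∈ P, ∀ z' ∈ P, ‖z - z'‖ ≤ ‖T (z - z')‖ + K * |v z - v z'|)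
    (hdet : ∀ᵐ z ∂volume.restrict P, 0 < s * (slD (fderivWithin ℝ v P z) T).det) :
    ∃ Q Ψ, SlPc v (ENNReal.ofReal (‖T‖ ^ k)) P Q Ψ s := by
  obtain ⟨V, hV, hvV⟩ := hv.extend_real
  set Φ : Euc (k + 1) → Euc (k + 1) := fun z => slCns (v z) (T z) with hΦd
  have hsub : ∀ z z', Φ z - Φ z' = slCns (v z - v z') (T (z - z')) := fun z z' => by
    rw [hΦd, slCns_sub, map_sub]
  have hΦ : LipschitzOnWith (L + ‖T‖₊) Φ P := LipschitzOnWith.of_dist_le_mul fun z hz z' hz' => by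
    rw [dist_eq_norm, hsub]
    refine (norm_slCns_le _ _).trans ?_
    have h1 := hv.dist_le_mul z hz z' hz'
    have h2 := T.le_opNorm (z - z')
    rw [Real.dist_eq, dist_eq_norm] at h1
    rw [dist_eq_norm, NNReal.coe_add, coe_nnnorm]
    linarith
  have hco : ∀ z ∈ P, ∀ z' ∈ P, ‖z - z'‖ ≤ (1 + K) * ‖Φ z - Φ z'‖ := fun z hz z' hz' => by
    rw [hsub]
    have h1 := abs_le_norm_slCns (v z - v z') (T (z - z'))
    have h2 := norm_le_norm_slCns (v z - v z') (T (z - z'))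
    have h3 := mul_le_mul_of_nonneg_left h1 (Nat.cast_nonneg (α := ℝ) K)
    linarith [h z hz z' hz']
  have hinj : InjOn Φ P := fun z hz z' hz' hzz => by
    have := hco z hz z' hz'
    rw [hzz, sub_self, norm_zero, mul_zero] at this
    exact sub_eq_zero.1 (norm_le_zero_iff.1 this)
  set Ψ := Function.invFunOn Φ P
  have hΨ : ∀ z ∈ P, Ψ (Φ z) = z := fun z hz => hinj.leftInvOn_invFunOn hz
  have hmaps : MapsTo Ψ (Φ '' P) P := by
    rintro _ ⟨z, hz, rfl⟩; rw [hΨ z hz]; exact hz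
  have hlip : LipschitzOnWith (1 + K) Ψ (Φ '' P) := LipschitzOnWith.of_dist_le_mul <| by
    rintro _ ⟨z, hz, rfl⟩ _ ⟨z', hz', rfl⟩
    rw [hΨ z hz, hΨ z' hz', dist_eq_norm, dist_eq_norm]
    simpa using hco z hz z' hz'
  have hD : ∀ᵐ z ∂volume.restrict P, fderivWithin ℝ Φ P z = slD (fderivWithin ℝ v P z) T := by
    filter_upwards [ae_fderivWithin_eq_fderiv hP hV hvV, ae_uniqueDiffWithinAt hP] with z hz hu
    rw [hz.2.2]
    exact (hasFDerivWithinAt_slCns hz.2.1 T).fderivWithin hu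
  refine ⟨Φ '' P, Ψ, hP.image_of_continuousOn_injOn hΦ.continuousOn hinj, hmaps, ⟨_, hlip⟩, ?_, ?_,
    fun A hA => ?_, fun ρ g Lg hg => ?_⟩
  · rintro _ ⟨z, hz, rfl⟩; rw [hΨ z hz]; rfl
  · rintro _ ⟨z, hz, rfl⟩ _ ⟨z', hz', rfl⟩ h0
    have h0' : v z = v z' := h0
    rw [hΨ z hz, hΨ z' hz', dist_eq_norm, dist_eq_norm, hsub]
    have h1 := h z hz z' hz'
    rw [h0', sub_self, abs_zero, mul_zero, add_zero] at h1
    exact h1.trans (norm_le_norm_slCns _ _)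
  · have hB : MeasurableSet {w : Euc (k + 1) | w 0 ∈ A} :=
      (by fun_prop : Measurable fun w : Euc (k + 1) => w 0) hA
    have hVA : MeasurableSet (V ⁻¹' A) := hV.continuous.measurable hA
    have hPA : P ∩ v ⁻¹' A = V ⁻¹' A ∩ P := by
      ext z; simp only [mem_inter_iff, mem_preimage]
      exact ⟨fun h => ⟨hvV h.1 ▸ h.2, h.1⟩, fun h => ⟨h.2, (hvV h.2).symm ▸ h.1⟩⟩
    rw [inter_comm, ← Measure.restrict_apply hB, ← lintegral_indicator_one hB,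
      lintegral_image_lip hP hΦ hinj, hPA, ← Measure.restrict_restrict hVA,
      ← lintegral_const_mul' _ _ ENNReal.ofReal_ne_top, ← lintegral_indicator hVA]
    refine lintegral_mono_ae ?_
    filter_upwards [hD, ae_restrict_mem hP] with z hz hzP
    by_cases hzA : V z ∈ A
    · have : Φ z ∈ {w : Euc (k + 1) | w 0 ∈ A} := show v z ∈ A from (hvV hzP).symm ▸ hzA
      rw [indicator_of_mem this, indicator_of_mem (show z ∈ V ⁻¹' A from hzA), hz, Pi.one_apply,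
        mul_one, ← ofReal_norm, ← ENNReal.ofReal_mul (by positivity), mul_comm]
      exact ENNReal.ofReal_le_ofReal (abs_det_slD_le _ _)
    · have : Φ z ∉ {w : Euc (k + 1) | w 0 ∈ A} := show v z ∉ A from (hvV hzP).symm ▸ hzA
      rw [indicator_of_notMem this, mul_zero]
      exact zero_le
  · have h1 := integral_jacE_image hP hΦ hinj (g := fun a w => g a (Ψ w))
      (fun a => (hg a).comp hlip hmaps) (fun w => ρ (Ψ w))
    rw [h1, ← integral_const_mul]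
    refine integral_congr_ae ?_
    filter_upwards [hD, hdet, ae_restrict_mem hP] with z hz hd hzP
    have h2 : jacE P (fun a w => g a (Ψ (Φ w))) z = jacE P g z := by
      unfold jacE
      congr 1
      ext a j
      simp only [Matrix.of_apply]
      rw [fderivWithin_congr' (f := g a) (fun w hw => by rw [hΨ w hw]) hzP]
    rw [h2, hΨ z hzP, hz]
    rcases hs with rfl | rfl
    · rw [one_mul] at hd
      rw [sign_pos hd]; simp
    · rw [sign_neg (by linarith)]; simp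

end Crest.Agent.R241
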